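import Vale.Agent.P224.R2.H979.C26.Id
import Vale.Agent.P224.R2.H979.CstU

/-!
The range of the mean normal in dimension 26.
-/

namespace Vale.Agent.P224.R2.H979.C26

open MeasureTheory Set Filter Function Module Vale.Agent.P224 Vale.Agent.P224.UE
  Vale.Agent.P224.POS Vale.Agent.P224.PO Vale.Agent.P224.R2.H979
open Vale.Agent.P224.SM2 hiding ker
open scoped Topology RealInnerProductSpace ENNReal ContDiff Manifold

set_option linter.unusedSectionVars false

/-- the ratio of the least Clifford volume in dimension 26 -/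
lemma clifford_le : leastClifford 26 ≤ 285571 / 200000 * sphereVol 26 :=
  even_bound (k := 13) (by norm_num) (by
    rw [eR_13]
    have := Real.pi_lt_d6
    linarith)

lemma law_neg : LawNeg ((26 : ℕ) + 1) (285571 / 200000) (135207800) (135207800) (3 / 100) (1 / 8) ((815886982349694744 : ℤ) : ℝ) ((-313135891208147256 : ℤ) : ℝ)
    (((399698424029162576 : ℤ) : ℝ) + ((9254364223990120 : ℤ) : ℝ)) ((21928569490025064 : ℤ) : ℝ) ((-26991809121593344 : ℤ) : ℝ) ((-232221673664 : ℤ) : ℝ) ((66572641152 : ℤ) : ℝ) ((-6025213936 : ℤ) : ℝ) := by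
  constructor <;> unfold Neg2 Bern <;> norm_num

section

variable {V W M : Type*} [NormedAddCommGroup V] [InnerProductSpace ℝ V] [FiniteDimensional ℝ V]
  [NormedAddCommGroup W] [InnerProductSpace ℝ W] [FiniteDimensional ℝ W]
  [TopologicalSpace M] [ChartedSpace V M]
  [MeasurableSpace V] [BorelSpace V] [MeasurableSpace M] [BorelSpace M]
  [IsManifold 𝓘(ℝ, V) ∞ M] [CompactSpace M] [T2Space M] [ConnectedSpace M]
  [MeasurableSpace W] [BorelSpace W]

/-- **The range of the mean normal in dimension 26.** -/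
theorem far_unit (hV : finrank ℝ V = 26) (hW : finrank ℝ W = finrank ℝ V + 2)
    {F : M → W} (hF : SphImm V F) (hmin : ∀ x n, IsUnitNormal V F x n → meanCurv V F x n = 0)
    {N : M → W} (hNs : ContMDiff 𝓘(ℝ, V) 𝓘(ℝ, W) ∞ N) (hN : ∀ x, IsUnitNormal V F x (N x))
    (hinj : Injective F) {e : W}
    (he : (volM V F).real univ • e = ∫ x, N x ∂(volM V F)) (hA : 0 < (volM V F).real univ)
    (hhi : (volM V F).real univ ≤ 285571 / 200000 * sphereVol 26) (hlt : ‖e‖ ≤ 1 / 8) :
    ‖e‖ < 3 / 100 := by
  have hκ : (135207800 : ℝ) ≤ KH 26 ∧ KH 26 ≤ (135207800 : ℝ) := ⟨KHn_26.ge, KHn_26.le⟩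
  exact Vale.Agent.P224.R2.H979.far_unit (by norm_num) hV hW hF hmin hNs hN hinj he hA (K := 28)
    (D := 1152921504606846976) (by norm_num) 815886982349694744 399698424029162576 (-313135891208147256) 21928569490025064 9254364223990120 (-26991809121593344)
    rows_ok rows_e (fun v x N y w hv hx hN hy hw hxN hyw hs =>
      pos v x N y w hv hx hN hy hw hxN hyw hs) rows_val hκ.1 hκ.2 (by norm_num) (by norm_num)
    (by norm_num) law_neg hhi hlt

end

end Vale.Agent.P224.R2.H979.C26
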